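import Vale.Agent.P166.SelfAvg

/-! Orthogonally invariant Ising spin glasses: the pressure is asymptotically deterministic, and
its asymptotic behaviour depends only on the inverse temperature and on the limiting spectral
law. -/

namespace Vale.Agent.Results.P166.SelfAveraging

open Vale.Agent.P166 MeasureTheory Filter Topology

theorem result :
    -- for every compactly supported `μ` and every `β ≥ 0` there is one deterministic sequence `p`
    -- such that `P_N(β) - p N → 0` in `L²` for all eigenvalue arrays allowed for `μ`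
    (∀ (μ : Measure ℝ) [IsProbabilityMeasure μ], IsCompact μ.support → ∀ β : ℝ, 0 ≤ β →
      ∃ p : ℕ → ℝ, ∀ ν : ∀ N : ℕ, Measure (Fin N → Fin N → ℝ), (∀ N, IsHaar N (ν N)) →
        ∀ lam : ∀ N : ℕ, Fin N → ℝ, Admissible μ lam →
        Tendsto (fun N => ∫ U, (pressure β (lam N) U - p N) ^ 2 ∂(ν N)) atTop (𝓝 0)) ∧
    -- the variance of the pressure is `O(1/N)`, for every spectrum
    (∀ (N : ℕ), 2 ≤ N → ∀ ν : Measure (Fin N → Fin N → ℝ), IsHaar N ν → ∀ (β L : ℝ), 0 ≤ β →
      ∀ lam : Fin N → ℝ, (∀ i, |lam i| ≤ L) →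
      ∫ U, (pressure β lam U - ∫ U, pressure β lam U ∂ν) ^ 2 ∂ν ≤ 800 * β ^ 2 * L ^ 2 / N) :=
  ⟨fun μ _ hμ _ hβ => self_averaging μ hμ hβ,
    fun _ hN _ hν _ _ hβ _ hL => var_pressure hν hN hβ hL⟩

end Vale.Agent.Results.P166.SelfAveraging
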