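import Vale.Agent.P166.Final

/-! Orthogonally invariant Ising spin glasses: the asymptotic behaviour of the pressure depends
only on the inverse temperature and on the limiting spectral law. -/

namespace Vale.Agent.Results.P166.Universality

open Vale.Agent.P166 MeasureTheory Filter Topology

theorem result (μ : Measure ℝ) [IsProbabilityMeasure μ] (hμ : IsCompact μ.support)
    (ν : ∀ N : ℕ, Measure (Fin N → Fin N → ℝ)) (hν : ∀ N, IsHaar N (ν N))
    (β : ℝ) (hβ : 0 ≤ β) (lam lam' : ∀ N : ℕ, Fin N → ℝ)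
    (h : Admissible μ lam) (h' : Admissible μ lam') :
    -- the laws of the two pressures merge
    (∀ φ : ℝ → ℝ, (∃ K, LipschitzWith K φ) →
      Tendsto (fun N : ℕ => (∫ U, φ (pressure β (lam N) U) ∂(ν N)) -
        ∫ U, φ (pressure β (lam' N) U) ∂(ν N)) atTop (𝓝 0)) ∧
    -- when the arrays are sorted, the pressures merge for the same orthogonal matrix
    ((∀ N, Monotone (lam N)) → (∀ N, Monotone (lam' N)) →
      Tendsto (fun N : ℕ => ∫ U, |pressure β (lam N) U - pressure β (lam' N) U| ∂(ν N))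
        atTop (𝓝 0)) ∧
    -- convergence in probability to a number `l` holds for both arrays or for none
    (∀ l : ℝ,
      (∀ ε, 0 < ε → Tendsto (fun N => ν N {U | ε ≤ |pressure β (lam N) U - l|}) atTop (𝓝 0)) ↔
      (∀ ε, 0 < ε → Tendsto (fun N => ν N {U | ε ≤ |pressure β (lam' N) U - l|}) atTop (𝓝 0))) :=
  ⟨fun _ ⟨_, hφ⟩ => final_lip hμ h h' hν hβ hφ,
    fun hm hm' => tendsto_L1 hμ h h' hm hm' hν hβ,
    fun _ => ⟨fun hl => final_prob hμ h h' hν hβ hl, fun hl => final_prob hμ h' h hν hβ hl⟩⟩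

end Vale.Agent.Results.P166.Universality
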